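import Vale.Agent.P108.Ent

open MeasureTheory Filter Vale.Agent.P108

theorem Vale.Agent.Results.P108.Entropy.result :
    (∃ k0 : ℝ, ∀ k : ℝ, k0 ≤ |k| → 0 < ksEntropy volume (stdMap k)) ∧
      0 < volume {k : ℝ | 0 < ksEntropy volume (stdMap k)} := by
  obtain ⟨k0, h⟩ := eventually_atTop.1 ent_pos
  refine ⟨⟨k0, fun k hk => ?_⟩, ?_⟩
  · rcases le_total 0 k with x | x
    · exact h k (by rwa [abs_of_nonneg x] at hk)
    · simpa using ent_neg (-k) (h (-k) (by rwa [abs_of_nonpos x] at hk))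
  · refine lt_of_lt_of_le ?_ (measure_mono fun k (hk : k ∈ Set.Ici k0) => h k hk)
    simp
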